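import Vale.Agent.P192.R2.H360.R.Defs

set_option linter.all false

/-! Machines over a group: row R5c. -/

namespace Vale.Agent.P192.R2.H636

open Vale.Agent.P192 Vale.Agent.P192.H437 Vale.Agent.P192.H593 Vale.Agent.P192.R2.H577
open Vale.Agent.P192.R2.H360.R Filter

universe u v

theorem num (D c : ℝ) (hc : 0 < c) : ∃ L0 : ℕ, ∀ L : ℕ, L0 ≤ L →
    D * L < c * ((L : ℝ) * Real.log L / Real.log (Real.log L)) := by
  have h1 : Tendsto (fun x : ℝ => Real.log (Real.log x)) atTop atTop :=
    Real.tendsto_log_atTop.comp Real.tendsto_log_atTop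
  have h2 : (fun x : ℝ => Real.log (Real.log x)) =o[atTop] (fun x : ℝ => Real.log x) := by
    have := Real.isLittleO_log_id_atTop.comp_tendsto Real.tendsto_log_atTop
    exact this
  have h3 := h2.def (c := c / (|D| + 1)) (by positivity)
  have h4 : ∀ᶠ x : ℝ in atTop, D * x < c * (x * Real.log x / Real.log (Real.log x)) := by
    filter_upwards [h3, h1.eventually_gt_atTop 0, Real.tendsto_log_atTop.eventually_gt_atTop 0,
      eventually_gt_atTop 0] with x hx hll hl hx0
    rw [Real.norm_eq_abs, Real.norm_eq_abs, abs_of_pos hll, abs_of_pos hl] at hx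
    have hD : D < |D| + 1 := by
      have := le_abs_self D
      linarith
    have hDp : 0 < |D| + 1 := by positivity
    rw [← mul_div_assoc, lt_div_iff₀ hll]
    have h5 : (|D| + 1) * Real.log (Real.log x) ≤ c * Real.log x := by
      calc (|D| + 1) * Real.log (Real.log x) ≤ (|D| + 1) * (c / (|D| + 1) * Real.log x) := by
            gcongr
        _ = c * Real.log x := by field_simp
    calc D * x * Real.log (Real.log x) < (|D| + 1) * x * Real.log (Real.log x) := by gcongr
      _ = x * ((|D| + 1) * Real.log (Real.log x)) := by ring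
      _ ≤ x * (c * Real.log x) := by gcongr
      _ = c * (x * Real.log x) := by ring
  have h5 := tendsto_natCast_atTop_atTop (R := ℝ) |>.eventually h4
  obtain ⟨L0, hL0⟩ := eventually_atTop.1 h5
  exact ⟨L0, fun L hL => hL0 L hL⟩

theorem r5c : R5c.{u, v} := by
  intro h3 ha hb G _ _ hG S hSf hS H A Q _ _ _ _ T C
  obtain ⟨K, hK⟩ := h3 G hG S hSf hS H A Q T
  obtain ⟨M, hM⟩ := ha G hG S hS K
  obtain ⟨C1, hC1⟩ := hb G hG S hSf hS H A Q T K
  obtain ⟨c, hc, hcut⟩ := cut_sum.{u, v} G hG S hS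
  obtain ⟨L0, hL0⟩ := num (3 * (C1 * (C * M))) c hc
  refine ⟨M * (L0 + 5), ?_⟩
  intro X _ _ hd tp st hloc x y n Z hZ hZc hn
  by_contra hcon
  have hcon : M * (L0 + 5) < n := not_le.1 hcon
  haveI : Nonempty X := ⟨x⟩
  have hconn := sch_connected (S := S) (X := X) hS
  have hd1 : n < (sch S X).dist x y := by
    by_contra h
    exact hn ((hop_iff hconn).2 (not_lt.1 h))
  obtain ⟨a, b, hab1, hab2⟩ := hM X x y
  have hMpos : 0 < M := by
    rcases Nat.eq_zero_or_pos M with h | h
    · rw [h, Nat.zero_mul] at hab1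
      omega
    · exact h
  have hlt : M * (L0 + 5) < M * ((sch S X).dist a b + 1) := by omega
  have hlt2 : L0 + 5 < (sch S X).dist a b + 1 := Nat.lt_of_mul_lt_mul_left hlt
  have hne : a ≠ b := by
    rintro rfl
    rw [SimpleGraph.dist_self] at hlt2
    omega
  obtain ⟨CC, h0, h1, h2, h4⟩ := hC1 X hd tp st hloc (hK X hd tp st hloc) Z hZ a b hne hab2
  set L := (sch S X).dist a b - 1 with hL
  have hL3 : 3 ≤ L := by omega
  have h5 := hcut X CC L hL3 h0 h1 h2 (C1 * Z.card) h4
  have h6 := hL0 L (by omega)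
  have h7 : C1 * Z.card ≤ 3 * (C1 * (C * M)) * L := by
    have e1 : n ≤ M * (L + 2) := by
      have : (sch S X).dist a b + 1 = L + 2 := by omega
      rw [← this]
      omega
    have e2 : M * (L + 2) ≤ M * (3 * L) := Nat.mul_le_mul_left _ (by omega)
    calc C1 * Z.card ≤ C1 * (C * n) := Nat.mul_le_mul_left _ hZc
      _ ≤ C1 * (C * (M * (3 * L))) :=
        Nat.mul_le_mul_left _ (Nat.mul_le_mul_left _ (e1.trans e2))
      _ = 3 * (C1 * (C * M)) * L := by ring
  have h8 : ((C1 * Z.card : ℕ) : ℝ) ≤ 3 * (C1 * (C * M)) * L := by exact_mod_cast h7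
  linarith

end Vale.Agent.P192.R2.H636
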